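import Vale.Agent.Lib.P162.Seq9

/-!
# Thorp shuffle on `2 ^ (d + 1)` cards mixes in `O(log n)` shuffles
-/

namespace Vale.Agent.Results.P162.A0_linear

open Vale.Agent.Lib.P162

/-- For a deck of `n = 2 * 2 ^ d = 2 ^ (d + 1)` cards, after any `t ≥ 160000 (d + 1)` Thorp shuffles
the total variation distance of the law of the full permutation to uniform is at most `1 / 4`;
hence `t_mix (2 ^ (d + 1)) ≤ 160000 log₂ n`. -/
theorem result (d : ℕ) :
    (∀ t : ℕ, 160000 * (d + 1) ≤ t → tvToUniform (convPowP (thorpLaw (2 ^ d)) t) ≤ 1 / 4) ∧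
    thorpMix (2 ^ d) ≤ 160000 * (d + 1) :=
  thorp_linear d

end Vale.Agent.Results.P162.A0_linear
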