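import Vale.Agent.Lib.P162.Final3

/-!
# Thorp shuffle on `2 ^ (d + 1)` cards mixes in `O(log n * log log n)` shuffles
-/

namespace Vale.Agent.Results.P162.C_main

open Vale.Agent.Lib.P162

/-- For a deck of `n = 2 * 2 ^ d = 2 ^ (d + 1)` cards, after any
`t ≥ 10 ^ 6 (d + 1) (1 + log (d + 1))` Thorp shuffles the total variation distance of the law of
the full permutation to uniform is at most `1 / 4`; hence
`t_mix (2 ^ (d + 1)) ≤ 10 ^ 6 (log₂ n) (1 + log (log₂ n))`. -/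
theorem result (d : ℕ) :
    (∀ t : ℕ, (10 : ℝ) ^ 6 * ((d : ℝ) + 1) * (1 + Real.log ((d : ℝ) + 1)) ≤ t →
      tvToUniform (convPowP (thorpLaw (2 ^ d)) t) ≤ 1 / 4) ∧
    (thorpMix (2 ^ d) : ℝ) ≤ (10 : ℝ) ^ 6 * ((d : ℝ) + 1) * (1 + Real.log ((d : ℝ) + 1)) :=
  thorp_main3 d

end Vale.Agent.Results.P162.C_main
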