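import Vale.Agent.Lib.P162.QF.Lower

/-!
# The order of growth of the mixing time of the Thorp shuffle on `2 ^ (d + 1)` cards
-/

namespace Vale.Agent.Results.P162.D_theta

open Vale.Agent.Lib.P162

/-- For a deck of `n = 2 * 2 ^ d = 2 ^ (d + 1)` cards: the total variation distance of the law of
the full permutation to uniform exceeds `1 / 4` after at most `d` Thorp shuffles and is at most
`1 / 4` after any `t ≥ 68404 (d + 1)` shuffles. Hence `d + 1 ≤ t_mix (2 ^ (d + 1)) ≤ 68404 (d + 1)`,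
that is `log₂ n ≤ t_mix n ≤ 68404 log₂ n`. -/
theorem result (d : ℕ) :
    (∀ t : ℕ, t ≤ d → 1 / 4 < tvToUniform (convPowP (thorpLaw (2 ^ d)) t)) ∧
    (∀ t : ℕ, 68404 * (d + 1) ≤ t → tvToUniform (convPowP (thorpLaw (2 ^ d)) t) ≤ 1 / 4) ∧
    d + 1 ≤ thorpMix (2 ^ d) ∧ thorpMix (2 ^ d) ≤ 68404 * (d + 1) :=
  QF.thorp_theta d

end Vale.Agent.Results.P162.D_theta
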